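import Vale.Agent.P045.Main

namespace Vale.Agent.Results.P045.RyserFalse

open Vale.Agent.P045

/-- Ryser's conjecture is false, already in the intersecting case: for every sufficiently large
prime `q` there is an intersecting `(q+1)`-partite `(q+1)`-uniform hypergraph with covering
number `q+1`. -/
theorem result :
    (∃ q0 : ℕ, ∀ q : ℕ, Nat.Prime q → q0 ≤ q →
      ∃ (n : ℕ) (part : Fin n → Fin (q + 1)) (H : Finset (Finset (Fin n))),
        IsPartite (q + 1) part H ∧ IsIntersecting H ∧ nu H = 1 ∧ tau H = q + 1) ∧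
    ¬ (∀ r : ℕ, 2 ≤ r → ∀ (n : ℕ) (part : Fin n → Fin r) (H : Finset (Finset (Fin n))),
        IsPartite r part H → tau H ≤ (r - 1) * nu H) := by
  refine ⟨main, fun h => ?_⟩
  obtain ⟨q0, hq⟩ := main
  obtain ⟨p, hp1, hp⟩ := Nat.exists_infinite_primes q0
  obtain ⟨n, part, H, h1, -, h3, h4⟩ := hq p hp hp1
  have h5 := h (p + 1) (by have := hp.two_le; omega) n part H h1
  rw [h3, h4] at h5
  omega

end Vale.Agent.Results.P045.RyserFalse
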